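import Vale.Agent.OT.Upper
import Vale.Agent.OT.Lower

/-- For every `d ≥ 2` the admissible stability exponents have a greatest element, and it is
`1/3`: so `α*_d = 1/3`, the supremum is attained, and `1/2` is not admissible. -/
theorem Vale.Agent.Results.P074.Exponent.result :
    ∀ d : ℕ, 2 ≤ d →
      IsGreatest {α : ℝ | Vale.Agent.OT.Admissible d α} (1 / 3) ∧
        sSup {α : ℝ | Vale.Agent.OT.Admissible d α} = 1 / 3 := by
  intro d hd
  have h : IsGreatest {α : ℝ | Vale.Agent.OT.Admissible d α} (1 / 3) :=
    ⟨Vale.Agent.OT.admissible_third (by omega),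
      fun _ hα => Vale.Agent.OT.admissible_le_third hd hα⟩
  exact ⟨h, h.csSup_eq⟩
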