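import Vale.Agent.OT.Upper

/-- For every `d ≥ 2`, every admissible stability exponent is at most `1/3`;
in particular the exponent `1/2` is not admissible. -/
theorem Vale.Agent.Results.P074.UpperThird.result :
    ∀ d : ℕ, 2 ≤ d → ∀ α : ℝ, Vale.Agent.OT.Admissible d α → α ≤ 1 / 3 :=
  fun _ hd _ h => Vale.Agent.OT.admissible_le_third hd h
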